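import Vale.Agent.P088.R2.H904.V.Sub

/-!
# P088, row WS1: the dictionary complex matrices / real vectors
-/

open MeasureTheory Set
open scoped ContDiff Matrix

noncomputable section

namespace Vale.Agent.P088.PJ.H904

open Vale.Agent.P088.LR Vale.Agent.P088.LR.U Vale.Agent.P088.LR.H158
open Vale.Agent.P088.HY (VV Bs Bn Un DB Co CoOk Com LxG LyG)

variable {n N : ℕ}

/-- Indices of real and imaginary parts of entries. -/
abbrev JJ (N : ℕ) := Fin N × Fin N × Bool

/-- Complex matrices. -/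
abbrev MM (N : ℕ) := Matrix (Fin N) (Fin N) ℂ

/-- The number of real coordinates. -/
def mm (N : ℕ) : ℕ := Fintype.card (JJ N)

/-- The numbering of the coordinates. -/
def ej (N : ℕ) : JJ N ≃ Fin (mm N) := Fintype.equivFin (JJ N)

/-- Real or imaginary part. -/
def prb (t : Bool) : ℂ →L[ℝ] ℝ := if t then Complex.imCLM else Complex.reCLM

/-- `1` or `i`. -/
def ub (t : Bool) : ℂ := if t then Complex.I else 1

lemma prb_false (z : ℂ) : prb false z = z.re := by simp [prb]

lemma prb_true (z : ℂ) : prb true z = z.im := by simp [prb]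

/-- The real coordinates of a complex matrix. -/
def En (N : ℕ) : MM N ≃ₗ[ℝ] (Fin (mm N) → ℝ) where
  toFun A p := prb ((ej N).symm p).2.2 (A ((ej N).symm p).1 ((ej N).symm p).2.1)
  invFun v := Matrix.of fun a b => (v (ej N (a, b, false)) : ℂ) + v (ej N (a, b, true)) * Complex.I
  map_add' A B := by
    funext p
    simp
  map_smul' c A := by
    funext p
    exact map_smul (prb ((ej N).symm p).2.2) c (A ((ej N).symm p).1 ((ej N).symm p).2.1)
  left_inv A := by
    ext a b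
    simp only [Matrix.of_apply, Equiv.symm_apply_apply, prb_false, prb_true]
    exact Complex.re_add_im _
  right_inv v := by
    funext p
    obtain ⟨⟨a, b, t⟩, rfl⟩ := (ej N).surjective p
    cases t
    · simp [prb_false]
    · simp [prb_true]

lemma En_apply (A : MM N) (p : Fin (mm N)) :
    En N A p = prb ((ej N).symm p).2.2 (A ((ej N).symm p).1 ((ej N).symm p).2.1) := rfl

lemma En_ej (A : MM N) (a b : Fin N) (t : Bool) : En N A (ej N (a, b, t)) = prb t (A a b) := by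
  rw [En_apply, Equiv.symm_apply_apply]

lemma En_symm (v : Fin (mm N) → ℝ) (a b : Fin N) :
    (En N).symm v a b = (v (ej N (a, b, false)) : ℂ) + v (ej N (a, b, true)) * Complex.I := rfl

lemma nq_En (A : MM N) : nq A = ∑ p, (En N A p) ^ 2 := by
  rw [← (ej N).sum_comp, Fintype.sum_prod_type]
  unfold nq
  refine Finset.sum_congr rfl fun a _ => ?_
  rw [Fintype.sum_prod_type]
  refine Finset.sum_congr rfl fun b _ => ?_
  rw [Fintype.sum_bool, En_ej, En_ej, prb_false, prb_true, Complex.sq_norm, Complex.normSq_apply]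
  ring

/-- Left multiplication in real coordinates. -/
def ML (B : MM N) : Matrix (Fin (mm N)) (Fin (mm N)) ℝ :=
  LinearMap.toMatrix' ((En N).toLinearMap ∘ₗ LinearMap.mulLeft ℝ B ∘ₗ (En N).symm.toLinearMap)

/-- Right multiplication in real coordinates. -/
def MR (B : MM N) : Matrix (Fin (mm N)) (Fin (mm N)) ℝ :=
  LinearMap.toMatrix' ((En N).toLinearMap ∘ₗ LinearMap.mulRight ℝ B ∘ₗ (En N).symm.toLinearMap)

lemma ML_sum (B A : MM N) (p : Fin (mm N)) : ∑ q, ML B p q * En N A q = En N (B * A) p := by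
  have h : (ML B).mulVec (En N A) = En N (B * A) := by
    rw [ML, LinearMap.toMatrix'_mulVec]
    simp
  have h2 := congrFun h p
  rw [← h2]
  rfl

lemma MR_sum (B A : MM N) (p : Fin (mm N)) : ∑ q, MR B p q * En N A q = En N (A * B) p := by
  have h : (MR B).mulVec (En N A) = En N (A * B) := by
    rw [MR, LinearMap.toMatrix'_mulVec]
    simp
  have h2 := congrFun h p
  rw [← h2]
  rfl

lemma ML_MR (A B : MM N) : ML A * MR B = MR B * ML A := by
  rw [ML, MR, ← LinearMap.toMatrix'_comp, ← LinearMap.toMatrix'_comp]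
  congr 1
  apply LinearMap.ext
  intro v
  simp [mul_assoc]

/-- Elementary real linear map. -/
def La (t u : Bool) : ℂ →L[ℝ] ℝ := (prb t).comp ((ContinuousLinearMap.mul ℝ ℂ).flip (ub u))

lemma prb_le (t : Bool) (z : ℂ) : ‖prb t z‖ ≤ ‖z‖ := by
  cases t
  · rw [prb_false, Real.norm_eq_abs]
    exact Complex.abs_re_le_norm z
  · rw [prb_true, Real.norm_eq_abs]
    exact Complex.abs_im_le_norm z

lemma ub_norm (u : Bool) : ‖ub u‖ = 1 := by
  cases u <;> simp [ub]

lemma La_apply (t u : Bool) (z : ℂ) : La t u z = prb t (z * ub u) := rfl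

lemma La_norm (t u : Bool) : ‖La t u‖ ≤ 1 := by
  refine ContinuousLinearMap.opNorm_le_bound _ zero_le_one fun z => ?_
  rw [La_apply]
  refine (prb_le _ _).trans ?_
  rw [norm_mul, ub_norm, mul_one, one_mul]

lemma En_symm_single (c d : Fin N) (u : Bool) (a b : Fin N) :
    (En N).symm (Pi.single (ej N (c, d, u)) 1) a b = if a = c ∧ b = d then ub u else 0 := by
  rw [En_symm]
  simp only [Pi.single_apply, (ej N).injective.eq_iff, Prod.mk.injEq]
  by_cases h1 : a = c <;> by_cases h2 : b = d <;> cases u <;> simp [h1, h2, ub]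

lemma ML_entry (B : MM N) (a b : Fin N) (t : Bool) (c d : Fin N) (u : Bool) :
    ML B (ej N (a, b, t)) (ej N (c, d, u)) = if b = d then La t u (B a c) else 0 := by
  rw [ML, LinearMap.toMatrix'_apply]
  simp only [LinearMap.coe_comp, Function.comp_apply, LinearEquiv.coe_coe]
  rw [LinearMap.mulLeft_apply, En_ej, Matrix.mul_apply]
  simp only [En_symm_single]
  by_cases h : b = d
  · simp [h, La_apply]
  · simp [h]

lemma MR_entry (B : MM N) (a b : Fin N) (t : Bool) (c d : Fin N) (u : Bool) :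
    MR B (ej N (a, b, t)) (ej N (c, d, u)) = if a = c then La t u (B d b) else 0 := by
  rw [MR, LinearMap.toMatrix'_apply]
  simp only [LinearMap.coe_comp, Function.comp_apply, LinearEquiv.coe_coe]
  rw [LinearMap.mulRight_apply, En_ej, Matrix.mul_apply]
  simp only [En_symm_single]
  by_cases h : a = c
  · simp [h, La_apply, mul_comm]
  · simp [h]

/-! ## Derivatives -/

/-- The real coordinates of a matrix function. -/
def Ek (K : KC n N) (p : Fin (mm N)) (z : VV n) : ℝ := En N (K z) p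

lemma Ek_sm {O : Set (VV n)} {K : KC n N} (hK : SmK O K) (p : Fin (mm N)) :
    ContDiffOn ℝ ∞ (Ek K p) O :=
  (prb ((ej N).symm p).2.2).contDiff.comp_contDiffOn (hK ((ej N).symm p).1 ((ej N).symm p).2.1)

lemma fd_Ek {O : Set (VV n)} (hO : IsOpen O) {K : KC n N} (hK : SmK O K) (p : Fin (mm N))
    {z : VV n} (hz : z ∈ O) (v : VV n) :
    fderiv ℝ (Ek K p) z v =
      En N (Matrix.of fun a b => fderiv ℝ (fun z => K z a b) z v) p := by
  have h1 : DifferentiableAt ℝ (fun z => K z ((ej N).symm p).1 ((ej N).symm p).2.1) z :=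
    ((hK _ _).contDiffAt (hO.mem_nhds hz)).differentiableAt (by simp)
  have h2 := ((prb ((ej N).symm p).2.2).hasFDerivAt.comp z h1.hasFDerivAt).fderiv
  have h3 : Ek K p = (prb ((ej N).symm p).2.2) ∘
      (fun z => K z ((ej N).symm p).1 ((ej N).symm p).2.1) := rfl
  rw [h3, h2]
  rfl

lemma dx_Ek {O : Set (VV n)} (hO : IsOpen O) {K : KC n N} (hK : SmK O K) (i : Fin n)
    (p : Fin (mm N)) {z : VV n} (hz : z ∈ O) : HY.dx i (Ek K p) z = Ek (dxk i K) p z :=
  fd_Ek hO hK p hz _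

lemma dy_Ek {O : Set (VV n)} (hO : IsOpen O) {K : KC n N} (hK : SmK O K) (i : Fin n)
    (p : Fin (mm N)) {z : VV n} (hz : z ∈ O) : HY.dy i (Ek K p) z = Ek (dyk i K) p z :=
  fd_Ek hO hK p hz _

lemma sm_fd {O : Set (VV n)} (hO : IsOpen O) {f : VV n → ℂ} (hf : ContDiffOn ℝ ∞ f O) (v : VV n) :
    ContDiffOn ℝ ∞ (fun z => fderiv ℝ f z v) O :=
  (hf.fderiv_of_isOpen hO (by simp)).clm_apply contDiffOn_const

lemma dxk_sm {O : Set (VV n)} (hO : IsOpen O) {K : KC n N} (hK : SmK O K) (i : Fin n) :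
    SmK O (dxk i K) := fun a b => sm_fd hO (hK a b) _

lemma dyk_sm {O : Set (VV n)} (hO : IsOpen O) {K : KC n N} (hK : SmK O K) (i : Fin n) :
    SmK O (dyk i K) := fun a b => sm_fd hO (hK a b) _

lemma dxx_Ek {O : Set (VV n)} (hO : IsOpen O) {K : KC n N} (hK : SmK O K) (i j : Fin n)
    (p : Fin (mm N)) {z : VV n} (hz : z ∈ O) :
    HY.dx i (HY.dx j (Ek K p)) z = Ek (dxk i (dxk j K)) p z := by
  rw [← dx_Ek hO (dxk_sm hO hK j) i p hz]
  unfold HY.dx
  have h : HY.dx j (Ek K p) =ᶠ[nhds z] Ek (dxk j K) p := by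
    filter_upwards [hO.mem_nhds hz] with y hy using dx_Ek hO hK j p hy
  exact congrArg (fun L : VV n →L[ℝ] ℝ => L (Pi.single i 1, 0)) h.fderiv_eq

lemma dyy_Ek {O : Set (VV n)} (hO : IsOpen O) {K : KC n N} (hK : SmK O K) (i j : Fin n)
    (p : Fin (mm N)) {z : VV n} (hz : z ∈ O) :
    HY.dy i (HY.dy j (Ek K p)) z = Ek (dyk i (dyk j K)) p z := by
  rw [← dy_Ek hO (dyk_sm hO hK j) i p hz]
  unfold HY.dy
  have h : HY.dy j (Ek K p) =ᶠ[nhds z] Ek (dyk j K) p := by
    filter_upwards [hO.mem_nhds hz] with y hy using dy_Ek hO hK j p hy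
  exact congrArg (fun L : VV n →L[ℝ] ℝ => L (0, Pi.single i 1)) h.fderiv_eq

/-- The first order coefficients in `x`. -/
def bl' (β : Fin n → MC n N) : Fin n → V n → Matrix (Fin (mm N)) (Fin (mm N)) ℝ :=
  fun i x => ML (β i x)

/-- The first order coefficients in `y`. -/
def br' (β : Fin n → MC n N) : Fin n → V n → Matrix (Fin (mm N)) (Fin (mm N)) ℝ :=
  fun i x => MR (β i x)

lemma En_smul (r : ℝ) (A : MM N) (p : Fin (mm N)) : En N ((r : ℂ) • A) p = r * En N A p := by
  have h : ((r : ℂ) • A) = r • A := by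
    ext a b
    simp
  rw [h, map_smul]
  rfl

lemma En_add (A B : MM N) (p : Fin (mm N)) : En N (A + B) p = En N A p + En N B p := by
  rw [map_add]
  rfl

lemma En_sum {ι : Type*} (S : Finset ι) (A : ι → MM N) (p : Fin (mm N)) :
    En N (∑ i ∈ S, A i) p = ∑ i ∈ S, En N (A i) p := by
  rw [map_sum, Finset.sum_apply]

lemma LxG_Ek {O : Set (VV n)} (hO : IsOpen O) {K : KC n N} (hK : SmK O K) (s : MF n)
    (β : Fin n → MC n N) (p : Fin (mm N)) {z : VV n} (hz : z ∈ O) :
    LxG s (e0 (bl' β)) (Ek K) p z = En N (Lk s β K z) p := by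
  unfold HY.LxG Lk HY.Lx e0 bl'
  rw [En_add, En_sum, En_sum]
  congr 1
  · refine Finset.sum_congr rfl fun i _ => ?_
    rw [En_sum]
    refine Finset.sum_congr rfl fun j _ => ?_
    rw [En_smul, dxx_Ek hO hK i j p hz]
    rfl
  · simp only [Matrix.zero_apply, zero_mul, add_zero]
    rw [Finset.sum_comm]
    refine Finset.sum_congr rfl fun l _ => ?_
    rw [← ML_sum]
    refine Finset.sum_congr rfl fun q _ => ?_
    rw [dx_Ek hO hK l q hz]
    rfl

lemma LyG_Ek {O : Set (VV n)} (hO : IsOpen O) {K : KC n N} (hK : SmK O K) (s : MF n)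
    (β : Fin n → MC n N) (p : Fin (mm N)) {z : VV n} (hz : z ∈ O) :
    LyG s (e0 (br' β)) (Ek K) p z = En N (Rk s β K z) p := by
  unfold HY.LyG Rk HY.Ly e0 br'
  rw [En_add, En_sum, En_sum]
  congr 1
  · refine Finset.sum_congr rfl fun i _ => ?_
    rw [En_sum]
    refine Finset.sum_congr rfl fun j _ => ?_
    rw [En_smul, dyy_Ek hO hK i j p hz]
    rfl
  · simp only [Matrix.zero_apply, zero_mul, add_zero]
    rw [Finset.sum_comm]
    refine Finset.sum_congr rfl fun l _ => ?_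
    rw [← MR_sum]
    refine Finset.sum_congr rfl fun q _ => ?_
    rw [dy_Ek hO hK l q hz]
    rfl

/-! ## Coefficients -/

lemma cl_La {k : ℕ} {δ : ℝ} {f : V n → ℂ} (hf : ContDiff ℝ ∞ f) (h : Cl k δ f) (t u : Bool) :
    Cl k δ (fun x => La t u (f x)) := by
  intro l hl x
  have h1 := (La t u).norm_iteratedFDeriv_comp_left (f := f) (x := x) (n := l) (N := ∞)
    hf.contDiffAt (by exact_mod_cast le_top)
  have h2 : (fun x => La t u (f x)) = (La t u) ∘ f := rfl
  rw [h2]
  refine h1.trans ?_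
  calc ‖La t u‖ * ‖iteratedFDeriv ℝ l f x‖ ≤ 1 * ‖iteratedFDeriv ℝ l f x‖ :=
        mul_le_mul_of_nonneg_right (La_norm t u) (norm_nonneg _)
    _ ≤ δ := by rw [one_mul]; exact h l hl x

lemma cl_zero {k : ℕ} {δ : ℝ} (h : 0 ≤ δ) : Cl k δ (fun _ : V n => (0 : ℝ)) := by
  intro l _ x
  have : iteratedFDeriv ℝ l (fun _ : V n => (0 : ℝ)) x = 0 := by
    rw [iteratedFDeriv_fun_zero]
    rfl
  rw [this, norm_zero]
  exact h

lemma coR_l {k : ℕ} {δ : ℝ} (hδ : 0 ≤ δ) {s : MF n} {β : Fin n → MC n N} (h : CoK k δ s β) :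
    CoR k δ s (bl' β) where
  sm := h.sm
  sy := h.sy
  one := h.one
  cl := h.cl
  sb i p q := by
    obtain ⟨⟨a, b, t⟩, rfl⟩ := (ej N).surjective p
    obtain ⟨⟨c, d, u⟩, rfl⟩ := (ej N).surjective q
    simp only [bl', ML_entry]
    by_cases hb : b = d
    · simp only [hb, if_true]
      exact (La t u).contDiff.comp (h.sb i a c)
    · simp only [hb, if_false]
      exact contDiff_const
  cb i p q := by
    obtain ⟨⟨a, b, t⟩, rfl⟩ := (ej N).surjective p
    obtain ⟨⟨c, d, u⟩, rfl⟩ := (ej N).surjective q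
    simp only [bl', ML_entry]
    by_cases hb : b = d
    · simp only [hb, if_true]
      exact cl_La (h.sb i a c) (h.cb i a c) t u
    · simp only [hb, if_false]
      exact cl_zero hδ

lemma coR_r {k : ℕ} {δ : ℝ} (hδ : 0 ≤ δ) {s : MF n} {β : Fin n → MC n N} (h : CoK k δ s β) :
    CoR k δ s (br' β) where
  sm := h.sm
  sy := h.sy
  one := h.one
  cl := h.cl
  sb i p q := by
    obtain ⟨⟨a, b, t⟩, rfl⟩ := (ej N).surjective p
    obtain ⟨⟨c, d, u⟩, rfl⟩ := (ej N).surjective q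
    simp only [br', MR_entry]
    by_cases hb : a = c
    · simp only [hb, if_true]
      exact (La t u).contDiff.comp (h.sb i d b)
    · simp only [hb, if_false]
      exact contDiff_const
  cb i p q := by
    obtain ⟨⟨a, b, t⟩, rfl⟩ := (ej N).surjective p
    obtain ⟨⟨c, d, u⟩, rfl⟩ := (ej N).surjective q
    simp only [br', MR_entry]
    by_cases hb : a = c
    · simp only [hb, if_true]
      exact cl_La (h.sb i d b) (h.cb i d b) t u
    · simp only [hb, if_false]
      exact cl_zero hδ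

/-! ## Decoding -/

/-- The matrix function with given real coordinates. -/
def Dk (w : Fin (mm N) → VV n → ℝ) : KC n N := fun z => (En N).symm (fun p => w p z)

lemma Ek_Dk (w : Fin (mm N) → VV n → ℝ) : Ek (Dk w) = w := by
  funext p z
  unfold Ek Dk
  rw [LinearEquiv.apply_symm_apply]

lemma Dk_sm {O : Set (VV n)} {w : Fin (mm N) → VV n → ℝ} (h : ∀ p, ContDiffOn ℝ ∞ (w p) O) :
    SmK O (Dk w) := by
  intro a b
  unfold Dk
  simp only [En_symm]
  exact (Complex.ofRealCLM.contDiff.comp_contDiffOn (h _)).add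
    ((Complex.ofRealCLM.contDiff.comp_contDiffOn (h _)).mul contDiffOn_const)

lemma nq_Ek (K : KC n N) (z : VV n) : nq (K z) = ∑ p, Ek K p z ^ 2 := nq_En _

lemma Un_open : IsOpen (Un n) := by
  have h : IsOpen (Bn n) := by
    have hc : Continuous (fun x : V n => HY.sq x) := by
      unfold HY.sq
      fun_prop
    exact isOpen_lt hc continuous_const
  exact h.prod h

/-- (WS1) -/
theorem rowWS1 : RowWS1 := by
  intro hR n N hn
  obtain ⟨k, C, c, δ₀, τ₀, hC, hc, hδ, hτ, H⟩ := hR n (mm N) hn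
  refine ⟨k, C, c, δ₀, τ₀, hC, hc, hδ, hτ, ?_⟩
  intro s₁ s₂ β₁ β₂ h₁ h₂ η τ hη hDB hτ₀ hτη F₁ F₂ hF₁ hF₂ hcomp hsupp
  have hF₁' : ∀ p, ContDiff ℝ ∞ (Ek F₁ p) := fun p => contDiffOn_univ.1 (Ek_sm hF₁ p)
  have hF₂' : ∀ p, ContDiff ℝ ∞ (Ek F₂ p) := fun p => contDiffOn_univ.1 (Ek_sm hF₂ p)
  obtain ⟨w, hw, hw1, hw2, hwi, hwe⟩ := H s₁ s₂ (bl' β₁) (br' β₂) (coR_l hδ.le h₁)
    (coR_r hδ.le h₂) (fun i j x y => ML_MR _ _) η τ hη hDB hτ₀ hτη (Ek F₁) (Ek F₂) hF₁' hF₂'
    (by
      intro z hz p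
      rw [LyG_Ek isOpen_univ hF₁ s₂ β₂ p (mem_univ z), LxG_Ek isOpen_univ hF₂ s₁ β₁ p (mem_univ z),
        hcomp z hz])
    (by
      intro z hz p
      obtain ⟨h1, h2⟩ := hsupp z hz
      unfold Ek
      rw [h1, h2, map_zero]
      exact ⟨rfl, rfl⟩)
  have hsm : SmK (Un n) (Dk w) := Dk_sm hw
  refine ⟨Dk w, hsm, ?_, ?_, ?_, ?_⟩
  · intro z hz
    apply (En N).injective
    funext p
    have h3 := hw1 z hz p
    rw [← Ek_Dk w, LxG_Ek Un_open hsm s₁ β₁ p hz] at h3
    exact h3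
  · intro z hz
    apply (En N).injective
    funext p
    have h3 := hw2 z hz p
    rw [← Ek_Dk w, LyG_Ek Un_open hsm s₂ β₂ p hz] at h3
    exact h3
  · simp only [nq_Ek, Ek_Dk]
    exact hwi
  · simp only [nq_Ek, Ek_Dk]
    exact hwe

end Vale.Agent.P088.PJ.H904
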